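import Vale.Agent.P310.Final

namespace Vale.Agent.Results.P310.WLLower

open Vale.Agent.P310 Filter Asymptotics

theorem result :
    (∀ k : ℕ, 29 ≤ k → ∀ M : TM, M.Decides k →
      ∃ᶠ n : ℕ in atTop, (n : ℝ) ^ ((k : ℝ) / 14) ≤ (M.worst n : ℝ)) ∧
    ¬ ∃ g : ℕ → ℝ, g =o[atTop] (fun k : ℕ => (k : ℝ)) ∧
      ∀ k : ℕ, 2 ≤ k → ∃ M : TM, M.Decides k ∧
        (fun n : ℕ => (M.worst n : ℝ)) =O[atTop] fun n : ℕ => (n : ℝ) ^ g k := by
  refine ⟨lower, ?_⟩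
  rintro ⟨g, hg, h⟩
  obtain ⟨k, hk1, hk2⟩ := ((hg.bound (c := 1 / 28) (by norm_num)).and
    (eventually_ge_atTop 29)).exists
  obtain ⟨M, hM, hO⟩ := h k (by omega)
  obtain ⟨C, hC⟩ := hO.bound
  have hk3 : (29 : ℝ) ≤ k := by exact_mod_cast hk2
  have hpos : 0 < (k : ℝ) / 14 - g k := by
    have := le_abs_self (g k)
    rw [Real.norm_eq_abs, Real.norm_natCast] at hk1
    linarith
  have ht : ∀ᶠ n : ℕ in atTop, C < (n : ℝ) ^ ((k : ℝ) / 14 - g k) :=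
    ((tendsto_rpow_atTop hpos).comp tendsto_natCast_atTop_atTop).eventually_gt_atTop C
  obtain ⟨n, h1, h2, h3, h4⟩ :=
    ((lower k hk2 M hM).and_eventually (hC.and (ht.and (eventually_gt_atTop 0)))).exists
  have hn : (0 : ℝ) < n := by exact_mod_cast h4
  have h5 : 0 < (n : ℝ) ^ g k := Real.rpow_pos_of_pos hn _
  rw [Real.norm_natCast, Real.norm_eq_abs, abs_of_pos h5] at h2
  rw [Real.rpow_sub hn, lt_div_iff₀ h5] at h3
  linarith

end Vale.Agent.Results.P310.WLLower
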